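import Vale.Agent.P181.H649.Tensor2
import Vale.Agent.P181.PM.Alg
import Mathlib.RingTheory.MvPolynomial.WeightedHomogeneous

/-!
# The power map black box: from multilinear forms to functions on assignments

`GK.PM2` is the combinatorial form (distinct letters of two types), `AlgStmt` the algebraic form.
-/

set_option autoImplicit false
set_option linter.unusedSectionVars false

namespace Vale.Agent.P181.H569

open Finset MvPolynomial

/-- The algebraic form. -/
def AlgStmt (s q k1 k2 : ℕ) : Prop :=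
  ∀ (P : Type) [Fintype P] (L1 L2 : Submodule ℂ (MvPolynomial P ℂ))
    (F : MultilinearMap ℂ (fun _ : Fin s => MvPolynomial P ℂ) ℂ),
    (∀ (σ : Equiv.Perm (Fin s)) (v : Fin s → MvPolynomial P ℂ), F (fun i => v (σ i)) = F v) →
    (∀ f ∈ L1 ^ k1 * L2 ^ k2, F (fun _ => f ^ q) = 0) →
    ∀ v : Fin s → MvPolynomial P ℂ, (∀ i, v i ∈ L1 ^ (k1 * q) * L2 ^ (k2 * q)) → F v = 0

section

variable {s q : ℕ} {P : Type} [Fintype P] [DecidableEq P]

/-- the indicator function of a fibre as an exponent vector -/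
noncomputable def ind (y : P → Fin s) (i : Fin s) : P →₀ ℕ :=
  Finsupp.equivFunOnFinite.symm fun p => if y p = i then 1 else 0

theorem ind_apply (y : P → Fin s) (i : Fin s) (p : P) :
    ind y i p = if y p = i then 1 else 0 := by
  unfold ind
  rw [Finsupp.equivFunOnFinite_symm_apply_apply]

theorem ind_inj {y y' : P → Fin s} (h : ∀ i, ind y i = ind y' i) : y' = y := by
  funext p
  have h1 := congrArg (fun f => f p) (h (y p))
  simp only [ind_apply, if_true] at h1
  by_contra hne
  rw [if_neg hne] at h1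
  exact one_ne_zero h1

/-- the multilinear form of a function on assignments -/
noncomputable def FF (W : (P → Fin s) → ℂ) :
    MultilinearMap ℂ (fun _ : Fin s => MvPolynomial P ℂ) ℂ :=
  ∑ y : P → Fin s, W y • (MultilinearMap.mkPiAlgebra ℂ (Fin s) ℂ).compLinearMap
    (fun i => lcoeff ℂ (ind y i))

theorem FF_apply (W : (P → Fin s) → ℂ) (v : Fin s → MvPolynomial P ℂ) :
    FF W v = ∑ y : P → Fin s, W y * ∏ i, coeff (ind y i) (v i) := by
  unfold FF
  rw [_root_.sum_apply]
  refine Finset.sum_congr rfl fun y _ => ?_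
  rw [_root_.smul_apply, MultilinearMap.compLinearMap_apply,
    MultilinearMap.mkPiAlgebra_apply, smul_eq_mul]
  rfl

theorem FF_symm {W : (P → Fin s) → ℂ} (hW : ∀ τ : Equiv.Perm (Fin s), ∀ y,
    W (fun p => τ (y p)) = W y) (σ : Equiv.Perm (Fin s)) (v : Fin s → MvPolynomial P ℂ) :
    FF W (fun i => v (σ i)) = FF W v := by
  rw [FF_apply, FF_apply]
  refine Fintype.sum_equiv (Equiv.arrowCongr (Equiv.refl P) σ) _ _ fun y => ?_
  have h1 : (Equiv.arrowCongr (Equiv.refl P) σ) y = fun p => σ (y p) := rfl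
  rw [h1, hW σ y]
  congr 1
  refine Fintype.prod_equiv σ _ _ fun i => ?_
  have : ind (fun p => σ (y p)) (σ i) = ind y i := by
    ext p
    simp [ind_apply]
  rw [this]

theorem FF_top (W : (P → Fin s) → ℂ) (y : P → Fin s) :
    FF W (fun i => monomial (ind y i) 1) = W y := by
  rw [FF_apply, Finset.sum_eq_single y]
  · rw [Finset.prod_eq_one, mul_one]
    intro i _
    rw [coeff_monomial, if_pos rfl]
  · intro y' _ hne
    obtain ⟨i, hi⟩ : ∃ i, ind y i ≠ ind y' i := by
      by_contra h
      push Not at h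
      exact hne (ind_inj h)
    rw [Finset.prod_eq_zero (Finset.mem_univ i), mul_zero]
    rw [coeff_monomial, if_neg hi]
  · intro h
    exact absurd (Finset.mem_univ y) h

/-- the value on monomials which do not form an assignment -/
theorem FF_zero (W : (P → Fin s) → ℂ) (m : Fin s → P →₀ ℕ) (p : P) (h : ∑ i, m i p ≠ 1) :
    FF W (fun i => monomial (m i) 1) = 0 := by
  rw [FF_apply]
  refine Finset.sum_eq_zero fun y _ => ?_
  obtain ⟨i, hi⟩ : ∃ i, m i ≠ ind y i := by
    by_contra h'
    push Not at h'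
    apply h
    simp only [h', ind_apply]
    rw [Finset.sum_ite_eq, if_pos (Finset.mem_univ _)]
  rw [Finset.prod_eq_zero (Finset.mem_univ i), mul_zero]
  rw [coeff_monomial, if_neg hi]

theorem sum_one {ι : Type*} [Fintype ι] [DecidableEq ι] (f : ι → ℕ) (h : ∑ i, f i = 1) :
    ∃ i, ∀ j, f j = if i = j then 1 else 0 := by
  obtain ⟨i, hi⟩ : ∃ i, f i ≠ 0 := by
    by_contra h'
    push Not at h'
    rw [Finset.sum_eq_zero fun i _ => h' i] at h
    exact one_ne_zero h.symm
  have h1 : f i + ∑ j ∈ univ.erase i, f j = 1 := by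
    rw [Finset.add_sum_erase _ _ (Finset.mem_univ i), h]
  have h2 : ∑ j ∈ univ.erase i, f j = 0 := by omega
  have h3 : f i = 1 := by omega
  rw [Finset.sum_eq_zero_iff] at h2
  refine ⟨i, fun j => ?_⟩
  by_cases hj : i = j
  · rw [if_pos hj, ← hj, h3]
  · rw [if_neg hj]
    exact h2 j (Finset.mem_erase.2 ⟨fun h => hj h.symm, Finset.mem_univ j⟩)

/-- the relation, on monomials -/
theorem rel_monomials {c : Bool → ℕ} (ty : P → Bool) (W : (P → Fin s) → ℂ)
    (hW : ∀ ρ : P → Fin s × Fin q,
      (∀ r z, (univ.filter fun p => ρ p = r ∧ ty p = z).card = c z) →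
      ∑ σ : Equiv.Perm (Fin s × Fin q), W (fun p => (σ (ρ p)).1) = 0)
    (κ : Fin s × Fin q → P →₀ ℕ)
    (hκ : ∀ b z, ∑ p ∈ univ.filter (fun p => ty p = z), κ b p = c z) :
    ∑ σ : Equiv.Perm (Fin s × Fin q),
      FF W (fun i => monomial (∑ r, κ (σ (i, r))) 1) = 0 := by
  have hsum : ∀ (σ : Equiv.Perm (Fin s × Fin q)) (p : P),
      ∑ i, (∑ r, κ (σ (i, r))) p = ∑ b, κ b p := by
    intro σ p
    simp only [Finsupp.finsetSum_apply]
    rw [← Fintype.sum_prod_type' (f := fun i r => κ (σ (i, r)) p)]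
    exact Equiv.sum_comp σ fun b => κ b p
  by_cases hA : ∀ p, ∑ b, κ b p = 1
  · choose ρ hρ using fun p => sum_one (fun b => κ b p) (hA p)
    have h1 : ∀ σ : Equiv.Perm (Fin s × Fin q), ∀ i,
        ∑ r, κ (σ (i, r)) = ind (fun p => (σ.symm (ρ p)).1) i := by
      intro σ i
      ext p
      rw [Finsupp.finsetSum_apply, ind_apply]
      have h2 : ∀ r, κ (σ (i, r)) p = if σ.symm (ρ p) = (i, r) then 1 else 0 := by
        intro r
        rw [hρ p]
        congr 1
        rw [eq_iff_iff]
        constructor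
        · intro h
          rw [h, Equiv.symm_apply_apply]
        · intro h
          rw [← h, Equiv.apply_symm_apply]
      simp only [h2]
      by_cases h3 : (σ.symm (ρ p)).1 = i
      · rw [if_pos h3]
        rw [Finset.sum_eq_single (σ.symm (ρ p)).2]
        · rw [if_pos]
          rw [← h3]
        · intro r _ hr
          rw [if_neg]
          intro h4
          apply hr
          rw [h4]
        · intro h
          exact absurd (Finset.mem_univ _) h
      · rw [if_neg h3]
        refine Finset.sum_eq_zero fun r _ => ?_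
        rw [if_neg]
        intro h4
        apply h3
        rw [h4]
    have h5 : ∀ σ : Equiv.Perm (Fin s × Fin q),
        FF W (fun i => monomial (∑ r, κ (σ (i, r))) 1) = W (fun p => (σ.symm (ρ p)).1) := by
      intro σ
      simp only [h1]
      exact FF_top W _
    simp only [h5]
    have h6 := hW ρ ?_
    · rw [← h6]
      exact Fintype.sum_equiv (Equiv.inv _) _ _ fun σ => rfl
    · intro r z
      rw [← hκ r z]
      simp only [hρ]
      rw [Finset.card_eq_sum_ones, Finset.sum_filter, Finset.sum_filter]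
      refine Finset.sum_congr rfl fun p _ => ?_
      by_cases h7 : ty p = z <;> by_cases h8 : ρ p = r <;> simp [h7, h8]
  · push Not at hA
    obtain ⟨p, hp⟩ := hA
    refine Finset.sum_eq_zero fun σ _ => ?_
    refine FF_zero W _ p ?_
    rw [hsum]
    exact hp

/-- the relation for powers -/
theorem rel_pow {c : Bool → ℕ} (ty : P → Bool) (W : (P → Fin s) → ℂ)
    (hW : ∀ ρ : P → Fin s × Fin q,
      (∀ r z, (univ.filter fun p => ρ p = r ∧ ty p = z).card = c z) →
      ∑ σ : Equiv.Perm (Fin s × Fin q), W (fun p => (σ (ρ p)).1) = 0)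
    (f : MvPolynomial P ℂ)
    (hf : ∀ m ∈ f.support, ∀ z, ∑ p ∈ univ.filter (fun p => ty p = z), m p = c z) :
    FF W (fun _ => f ^ q) = 0 := by
  classical
  set S := {m // m ∈ f.support}
  have hfS : f = ∑ m : S, coeff m.1 f • monomial m.1 (1 : ℂ) := by
    conv_lhs => rw [f.as_sum]
    rw [← Finset.sum_coe_sort f.support]
    refine Finset.sum_congr rfl fun m _ => ?_
    rw [smul_monomial, smul_eq_mul, mul_one]
  have hpow : f ^ q = ∑ κ : Fin q → S, (∏ r, coeff (κ r).1 f) • monomial (∑ r, (κ r).1) (1 : ℂ) := by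
    conv_lhs => rw [hfS]
    rw [Fintype.sum_pow]
    refine Finset.sum_congr rfl fun κ _ => ?_
    rw [monomial_sum_one, Finset.prod_smul]
  rw [hpow]
  rw [MultilinearMap.map_sum (FF W) (fun (_ : Fin s) (κ : Fin q → S) =>
    (∏ r, coeff (κ r).1 f) • monomial (∑ r, (κ r).1) (1 : ℂ))]
  have h1 : ∀ K : Fin s → Fin q → S,
      FF W (fun i => (∏ r, coeff (K i r).1 f) • monomial (∑ r, (K i r).1) (1 : ℂ)) =
      (∏ i, ∏ r, coeff (K i r).1 f) • FF W (fun i => monomial (∑ r, (K i r).1) (1 : ℂ)) := by
    intro K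
    exact (FF W).map_smul_univ _ _
  simp only [h1]
  set H : (Fin s × Fin q → S) → ℂ := fun κ =>
    (∏ b, coeff (κ b).1 f) • FF W (fun i => monomial (∑ r, (κ (i, r)).1) (1 : ℂ)) with hH
  have h2 : ∑ K : Fin s → Fin q → S, (∏ i, ∏ r, coeff (K i r).1 f) •
      FF W (fun i => monomial (∑ r, (K i r).1) (1 : ℂ)) = ∑ κ, H κ := by
    refine (Fintype.sum_equiv (Equiv.curry (Fin s) (Fin q) S) _ _ fun κ => ?_).symm
    rw [hH]
    simp only [Equiv.curry_apply, Function.curry_apply]
    rw [← Fintype.prod_prod_type' (f := fun i r => coeff (κ (i, r)).1 f)]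
  rw [h2]
  have h3 : ∀ σ : Equiv.Perm (Fin s × Fin q), ∑ κ, H κ =
      ∑ κ : Fin s × Fin q → S, H (fun b => κ (σ b)) := by
    intro σ
    exact (Fintype.sum_equiv (Equiv.arrowCongr σ.symm (Equiv.refl S)) _ _ fun κ => rfl).symm
  have h4 : (Fintype.card (Equiv.Perm (Fin s × Fin q)) : ℂ) * ∑ κ, H κ = 0 := by
    have : (Fintype.card (Equiv.Perm (Fin s × Fin q)) : ℂ) * ∑ κ, H κ =
        ∑ σ : Equiv.Perm (Fin s × Fin q), ∑ κ : Fin s × Fin q → S, H (fun b => κ (σ b)) := by
      rw [← Finset.sum_congr rfl fun σ _ => h3 σ, Finset.sum_const, Finset.card_univ, nsmul_eq_mul]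
    rw [this, Finset.sum_comm]
    refine Finset.sum_eq_zero fun κ _ => ?_
    have h5 : ∀ σ : Equiv.Perm (Fin s × Fin q), H (fun b => κ (σ b)) =
        (∏ b, coeff (κ b).1 f) *
          FF W (fun i => monomial (∑ r, (κ (σ (i, r))).1) (1 : ℂ)) := by
      intro σ
      rw [hH]
      simp only [smul_eq_mul]
      rw [Equiv.prod_comp σ fun b => coeff (κ b).1 f]
    simp only [h5]
    rw [← Finset.mul_sum, rel_monomials ty W hW (fun b => (κ b).1) (fun b z => hf _ (κ b).2 z),
      mul_zero]
  rcases mul_eq_zero.1 h4 with h | h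
  · exact absurd h (Nat.cast_ne_zero.2 Fintype.card_ne_zero)
  · exact h

/-- the span of the letters of type `z` -/
noncomputable def LL (ty : P → Bool) (z : Bool) : Submodule ℂ (MvPolynomial P ℂ) :=
  Submodule.span ℂ (Set.range fun p : {p // ty p = z} => (X p.1 : MvPolynomial P ℂ))

/-- the weights -/
def wt (ty : P → Bool) (p : P) : Bool → ℕ := Pi.single (ty p) 1

theorem LL_pow_le (ty : P → Bool) (z : Bool) (k : ℕ) :
    LL ty z ^ k ≤ weightedHomogeneousSubmodule ℂ (wt ty) (Pi.single z k) := by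
  induction k with
  | zero =>
    rw [pow_zero, Submodule.one_le, mem_weightedHomogeneousSubmodule]
    simpa using isWeightedHomogeneous_one ℂ (wt ty)
  | succ k ih =>
    rw [pow_succ]
    have h1 : LL ty z ≤ weightedHomogeneousSubmodule ℂ (wt ty) (Pi.single z 1) := by
      unfold LL
      rw [Submodule.span_le]
      rintro _ ⟨p, rfl⟩
      have := isWeightedHomogeneous_X ℂ (wt ty) p.1
      rw [SetLike.mem_coe, mem_weightedHomogeneousSubmodule]
      have h2 : wt ty p.1 = Pi.single z 1 := by unfold wt; rw [p.2]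
      rwa [h2] at this
    refine (mul_le_mul' ih h1).trans ?_
    refine (weightedHomogeneousSubmodule_mul _ _ _).trans ?_
    rw [← Pi.single_add]

theorem support_of_mem {c : Bool → ℕ} (ty : P → Bool) {f : MvPolynomial P ℂ}
    (hf : f ∈ LL ty true ^ c true * LL ty false ^ c false) :
    ∀ m ∈ f.support, ∀ z, ∑ p ∈ univ.filter (fun p => ty p = z), m p = c z := by
  intro m hm z
  have h1 := (mul_le_mul' (LL_pow_le ty true (c true)) (LL_pow_le ty false (c false))) hf
  have h2 := weightedHomogeneousSubmodule_mul _ _ _ h1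
  rw [mem_weightedHomogeneousSubmodule] at h2
  have h3 := h2 (mem_support_iff.1 hm)
  rw [Finsupp.weight_apply, Finsupp.sum_fintype _ _ (fun _ => by simp)] at h3
  have h4 := congrFun h3 z
  rw [Finset.sum_apply] at h4
  have h5 : (Pi.single true (c true) + Pi.single false (c false) : Bool → ℕ) z = c z := by
    cases z <;> simp
  rw [h5] at h4
  rw [← h4, Finset.sum_filter]
  refine Finset.sum_congr rfl fun p _ => ?_
  by_cases h6 : ty p = z
  · simp [wt, h6]
  · have h7 : z ≠ ty p := fun h => h6 h.symm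
    simp [wt, h6, h7]

theorem prod_mem (ty : P → Bool) (z : Bool) (T : Finset P) (hT : ∀ p ∈ T, ty p = z) :
    (∏ p ∈ T, X p : MvPolynomial P ℂ) ∈ LL ty z ^ T.card := by
  induction T using Finset.induction_on with
  | empty =>
    rw [Finset.prod_empty, Finset.card_empty, pow_zero]
    exact Submodule.one_le.1 le_rfl
  | insert a T ha ih =>
    rw [Finset.prod_insert ha, Finset.card_insert_of_notMem ha, pow_succ']
    refine Submodule.mul_mem_mul ?_ (ih fun p hp => hT p (Finset.mem_insert_of_mem hp))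
    exact Submodule.subset_span ⟨⟨a, hT a (Finset.mem_insert_self a T)⟩, rfl⟩

end

/-- **From the algebraic form to the combinatorial form.** -/
theorem conv {s q : ℕ} {c : Bool → ℕ} (h : AlgStmt s q (c true) (c false)) :
    GK.PM2 s q c := by
  intro P _ _ ty W hsym hrel y hy
  have h1 := h P (LL ty true) (LL ty false) (FF W) (fun σ v => FF_symm hsym σ v)
    (fun f hf => rel_pow ty W hrel f (support_of_mem ty hf)) (fun i => monomial (ind y i) 1) ?_
  · rwa [FF_top] at h1
  · intro i
    have h2 : (monomial (ind y i) 1 : MvPolynomial P ℂ) =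
        (∏ p ∈ univ.filter (fun p => y p = i ∧ ty p = true), X p) *
          ∏ p ∈ univ.filter (fun p => y p = i ∧ ty p = false), X p := by
      rw [monomial_eq, C_1, one_mul, Finsupp.prod_fintype _ _ (fun _ => by simp)]
      rw [Finset.prod_filter, Finset.prod_filter, ← Finset.prod_mul_distrib]
      refine Finset.prod_congr rfl fun p _ => ?_
      rw [ind_apply]
      by_cases h3 : y p = i <;> cases h4 : ty p <;> simp [h3]
    rw [h2]
    refine Submodule.mul_mem_mul ?_ ?_
    · have := prod_mem ty true (univ.filter (fun p => y p = i ∧ ty p = true))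
        (fun p hp => (Finset.mem_filter.1 hp).2.2)
      rwa [hy i true, mul_comm q] at this
    · have := prod_mem ty false (univ.filter (fun p => y p = i ∧ ty p = false))
        (fun p hp => (Finset.mem_filter.1 hp).2.2)
      rwa [hy i false, mul_comm q] at this

/-- The algebraic form, from `PM.pm_alg`. -/
theorem algStmt {s q k1 k2 : ℕ} (hq : 1 ≤ q) (h1 : k1 = 0 ∨ s * (s - 1) * (q + 1) ≤ k1)
    (h2 : k2 = 0 ∨ s * (s - 1) * (q + 1) ≤ k2) : AlgStmt s q k1 k2 :=
  fun _ _ L1 L2 F hs hF v hv => PM.pm_alg L1 L2 F hs hq h1 h2 hF v hv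

/-- **The power map, two types of letters.** -/
theorem pm2 {s q : ℕ} (hq : 1 ≤ q) (c : Bool → ℕ)
    (hc : ∀ z, c z = 0 ∨ s * (s - 1) * (q + 1) ≤ c z) : GK.PM2 s q c :=
  conv (algStmt hq (hc true) (hc false))

/-- **The power map, one type of letters.** -/
theorem pm1 {s q k : ℕ} (hq : 1 ≤ q) (hk : s * (s - 1) * (q + 1) ≤ k) : GK.PM s k q := by
  intro P _ _ W hsym hrel y hy
  refine pm2 hq (fun z => if z then k else 0) ?_ P (fun _ => true) W hsym ?_ y ?_
  · intro z
    cases z
    · left; rfl
    · right; exact hk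
  · intro ρ hρ
    refine hrel ρ fun r => ?_
    have := hρ r true
    simpa using this
  · intro m z
    cases z
    · simp
    · simpa using hy m

end Vale.Agent.P181.H569
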