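import Vale.Agent.P181.H280.Defs
import Vale.Agent.P181.H676.Tail

/-!
P181: Foulkes' inequality for `(a, q a)` and all but very few partitions.
-/

set_option autoImplicit false

namespace Vale.Agent.P181.H569

open Finset Filter Topology Vale.Agent.P181.H280 Vale.Agent.P181.H676

/-- The statement of `H626.multK`. -/
def MultK : Prop :=
  ∀ (s q a X n : ℕ), 2 ≤ s → 1 ≤ q → 1 ≤ n → 25 * s ^ 4 * q ^ 2 ≤ a →
    (10 : ℝ) ^ 6 * s ^ 14 * q ^ 9 * a * Real.log a ≤ (X : ℝ) ^ 2 → ∀ lam : Fin n → ℕ,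
    ((∀ m, lam m + X ≤ (s + 1) * (q * a)) ∨
      (a + 1 ≤ n + s ∧ ∀ m : Fin n, (m : ℕ) + s ≤ a → X ≤ lam m)) →
    plethMult a (q * a) n lam ≤ plethMult (q * a) a n lam

open Classical in
/-- The partitions of `q a ^ 2` with at most `a` parts which violate Foulkes' inequality. -/
noncomputable def Bad (a q : ℕ) : Finset (Fin a → ℕ) :=
  (Lam a (a * (q * a))).filter fun lam => plethMult (q * a) a a lam < plethMult a (q * a) a lam

theorem almostK_count (h : MultK) (s q a : ℕ) (hs : 2 ≤ s) (hq : 1 ≤ q)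
    (ha : 25 * s ^ 4 * q ^ 2 ≤ a)
    (hX : (10 : ℝ) ^ 6 * s ^ 14 * q ^ 9 * a * Real.log a ≤ ((q * a : ℕ) : ℝ) ^ 2) :
    (Bad a q).card * 2 ^ (s / 4) ≤ (a * (q * a) + 1) * (Lam a (a * (q * a))).card := by
  classical
  have ha1 : 1 ≤ a := by
    have hs0 : 0 < s := by omega
    have : 0 < 25 * s ^ 4 * q ^ 2 := by positivity
    omega
  have hqa : 1 ≤ q * a := Nat.mul_pos hq ha1
  have h1 : Bad a q ⊆ (Lam a (a * (q * a))).filter fun l => ∃ i, s * (q * a) ≤ l i := by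
    intro lam hlam
    unfold Bad at hlam
    rw [Finset.mem_filter] at hlam ⊢
    refine ⟨hlam.1, ?_⟩
    by_contra hno
    push Not at hno
    have h2 := h s q a (q * a) a hs hq ha1 ha hX lam (Or.inl fun m => by
      have h3 := hno m
      have h4 : (s + 1) * (q * a) = s * (q * a) + q * a := by ring
      omega)
    omega
  have h2 := tail a (q * a) (s * (q * a)) hqa (by nlinarith)
  have h3 : s * (q * a) / (4 * (q * a)) = s / 4 := by
    rw [Nat.mul_div_mul_right _ _ hqa]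
  rw [h3] at h2
  exact (Nat.mul_le_mul_right _ (Finset.card_le_card h1)).trans h2

/-- The numbers, in the real variable `x = a ^ (1 / 15)`. -/
theorem num_ev (q : ℕ) (hq : 1 ≤ q) : ∀ᶠ x : ℝ in atTop, 1 ≤ x ∧
    25 * (9 * x) ^ 4 * (q : ℝ) ^ 2 ≤ x ^ 15 ∧
    (10 : ℝ) ^ 6 * (9 * x) ^ 14 * (q : ℝ) ^ 9 * x ^ 15 * (15 * Real.log x) ≤
      ((q : ℝ) * x ^ 15) ^ 2 ∧
    ((q : ℝ) * x ^ 30 + 1) * Real.exp x ≤ (2 : ℝ) ^ (2 * x - 1) := by
  have hq0 : (1 : ℝ) ≤ q := by exact_mod_cast hq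
  have e1 : ∀ᶠ x : ℝ in atTop, 25 * 9 ^ 4 * (q : ℝ) ^ 2 ≤ x := eventually_ge_atTop _
  have e2 : ∀ᶠ x : ℝ in atTop, Real.log x ≤ ((10 : ℝ) ^ 6 * 9 ^ 14 * 15 * (q : ℝ) ^ 7)⁻¹ * x := by
    have h := Real.isLittleO_log_id_atTop
    have h2 := h.def (c := ((10 : ℝ) ^ 6 * 9 ^ 14 * 15 * (q : ℝ) ^ 7)⁻¹) (by positivity)
    filter_upwards [h2, eventually_ge_atTop (1 : ℝ)] with x hx hx1
    simp only [id, Real.norm_eq_abs] at hx
    rw [abs_of_nonneg (Real.log_nonneg hx1), abs_of_nonneg (by linarith : (0 : ℝ) ≤ x)] at hx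
    exact hx
  have e3 : ∀ᶠ x : ℝ in atTop, x ^ 30 ≤ (4 * (q : ℝ))⁻¹ * Real.exp ((1 / 4 : ℝ) * x) := by
    have h := isLittleO_pow_exp_pos_mul_atTop (k := 30) (b := (1 / 4 : ℝ)) (by norm_num)
    have h2 := h.def (c := (4 * (q : ℝ))⁻¹) (by positivity)
    filter_upwards [h2, eventually_ge_atTop (1 : ℝ)] with x hx hx1
    rw [Real.norm_eq_abs, Real.norm_eq_abs, abs_of_nonneg (by positivity),
      abs_of_nonneg (Real.exp_pos _).le] at hx
    exact hx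
  filter_upwards [e1, e2, e3, eventually_ge_atTop (8 : ℝ)] with x h1 h2 h3 h8
  have hx0 : (0 : ℝ) < x := by linarith
  have hx1 : (1 : ℝ) ≤ x := by linarith
  refine ⟨hx1, ?_, ?_, ?_⟩
  · have h4 : x ≤ x ^ 11 := le_self_pow₀ hx1 (by norm_num)
    calc 25 * (9 * x) ^ 4 * (q : ℝ) ^ 2 = x ^ 4 * (25 * 9 ^ 4 * (q : ℝ) ^ 2) := by ring
      _ ≤ x ^ 4 * x ^ 11 := by gcongr; exact h1.trans h4
      _ = x ^ 15 := by ring
  · have h4 : (10 : ℝ) ^ 6 * 9 ^ 14 * 15 * (q : ℝ) ^ 7 * Real.log x ≤ x := by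
      have hc : (0 : ℝ) < (10 : ℝ) ^ 6 * 9 ^ 14 * 15 * (q : ℝ) ^ 7 := by positivity
      calc (10 : ℝ) ^ 6 * 9 ^ 14 * 15 * (q : ℝ) ^ 7 * Real.log x ≤
          ((10 : ℝ) ^ 6 * 9 ^ 14 * 15 * (q : ℝ) ^ 7) *
            (((10 : ℝ) ^ 6 * 9 ^ 14 * 15 * (q : ℝ) ^ 7)⁻¹ * x) := by gcongr
        _ = x := by rw [← mul_assoc, mul_inv_cancel₀ hc.ne', one_mul]
    calc (10 : ℝ) ^ 6 * (9 * x) ^ 14 * (q : ℝ) ^ 9 * x ^ 15 * (15 * Real.log x) =
        (q : ℝ) ^ 2 * x ^ 29 * ((10 : ℝ) ^ 6 * 9 ^ 14 * 15 * (q : ℝ) ^ 7 * Real.log x) := by ring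
      _ ≤ (q : ℝ) ^ 2 * x ^ 29 * x := by gcongr
      _ = ((q : ℝ) * x ^ 15) ^ 2 := by ring
  · have hlog : (0.69 : ℝ) < Real.log 2 := by
      have := Real.log_two_gt_d9
      linarith
    have h4 : (2 : ℝ) ^ (2 * x - 1) = Real.exp (Real.log 2 * (2 * x - 1)) := by
      rw [Real.rpow_def_of_pos (by norm_num)]
    have h5 : (q : ℝ) * x ^ 30 + 1 ≤ Real.exp ((1 / 4 : ℝ) * x) := by
      have h6 : (q : ℝ) * x ^ 30 ≤ (1 / 4 : ℝ) * Real.exp ((1 / 4 : ℝ) * x) := by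
        calc (q : ℝ) * x ^ 30 ≤ q * ((4 * (q : ℝ))⁻¹ * Real.exp ((1 / 4 : ℝ) * x)) := by gcongr
          _ = (1 / 4 : ℝ) * Real.exp ((1 / 4 : ℝ) * x) := by
            have : (q : ℝ) ≠ 0 := by positivity
            field_simp
      have h7 : (2 : ℝ) ≤ Real.exp ((1 / 4 : ℝ) * x) := by
        have := Real.add_one_le_exp ((1 / 4 : ℝ) * x)
        linarith
      linarith
    rw [h4]
    calc ((q : ℝ) * x ^ 30 + 1) * Real.exp x ≤ Real.exp ((1 / 4 : ℝ) * x) * Real.exp x := by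
          gcongr
      _ = Real.exp ((1 / 4 : ℝ) * x + x) := by rw [Real.exp_add]
      _ ≤ Real.exp (Real.log 2 * (2 * x - 1)) := by
          apply Real.exp_le_exp.2
          nlinarith

/-- **Almost all partitions.** For `a` large the exceptional proportion is at most
`exp (- a ^ (1 / 15))`. -/
theorem almostK (h : MultK) (q : ℕ) (hq : 1 ≤ q) : ∀ᶠ a : ℕ in atTop,
    ((Bad a q).card : ℝ) ≤
      Real.exp (-(a : ℝ) ^ ((1 : ℝ) / 15)) * ((Lam a (a * (q * a))).card : ℝ) := by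
  have ht : Tendsto (fun a : ℕ => (a : ℝ) ^ ((1 : ℝ) / 15)) atTop atTop :=
    (tendsto_rpow_atTop (by norm_num)).comp tendsto_natCast_atTop_atTop
  filter_upwards [ht.eventually (num_ev q hq), eventually_ge_atTop 1] with a ha ha1
  obtain ⟨hx1, h1, h2, h3⟩ := ha
  set x : ℝ := (a : ℝ) ^ ((1 : ℝ) / 15) with hx
  have hx15 : x ^ 15 = a := by
    rw [hx, ← Real.rpow_natCast, ← Real.rpow_mul (by positivity)]
    norm_num
  have hx0 : 0 < x := by linarith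
  obtain ⟨s, hs⟩ : ∃ s : ℕ, s = ⌈8 * x⌉₊ := ⟨_, rfl⟩
  have hs1 : 8 * x ≤ s := by rw [hs]; exact Nat.le_ceil _
  have hs2 : (s : ℝ) ≤ 9 * x := by
    have := Nat.ceil_lt_add_one (a := 8 * x) (by positivity)
    rw [hs]
    linarith
  have hs3 : 2 ≤ s := by
    have : (2 : ℝ) ≤ s := by linarith
    exact_mod_cast this
  have hlog : Real.log a = 15 * Real.log x := by
    rw [← hx15, Real.log_pow]
    norm_num
  have hlogx : 0 ≤ Real.log x := Real.log_nonneg hx1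
  have h4 := almostK_count h s q a hs3 hq (by
      have h5 : (25 * (s : ℝ) ^ 4 * (q : ℝ) ^ 2) ≤ a := by
        calc (25 * (s : ℝ) ^ 4 * (q : ℝ) ^ 2) ≤ 25 * (9 * x) ^ 4 * (q : ℝ) ^ 2 := by gcongr
          _ ≤ x ^ 15 := h1
          _ = a := hx15
      exact_mod_cast h5) (by
      rw [hlog]
      push_cast
      calc (10 : ℝ) ^ 6 * s ^ 14 * q ^ 9 * a * (15 * Real.log x) ≤
          (10 : ℝ) ^ 6 * (9 * x) ^ 14 * (q : ℝ) ^ 9 * a * (15 * Real.log x) := by gcongr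
        _ = (10 : ℝ) ^ 6 * (9 * x) ^ 14 * (q : ℝ) ^ 9 * x ^ 15 * (15 * Real.log x) := by rw [hx15]
        _ ≤ ((q : ℝ) * x ^ 15) ^ 2 := h2
        _ = ((q : ℝ) * a) ^ 2 := by rw [hx15])
  have h5 : ((Bad a q).card : ℝ) * 2 ^ (s / 4) ≤
      ((a : ℝ) * (q * a) + 1) * ((Lam a (a * (q * a))).card : ℝ) := by exact_mod_cast h4
  have h6 : (2 : ℝ) ^ (2 * x - 1) ≤ (2 : ℝ) ^ (s / 4) := by
    rw [← Real.rpow_natCast]
    apply Real.rpow_le_rpow_of_exponent_le (by norm_num)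
    have h7 : s ≤ 4 * (s / 4) + 3 := by omega
    have h8 : (s : ℝ) ≤ 4 * ((s / 4 : ℕ) : ℝ) + 3 := by exact_mod_cast h7
    linarith
  have h7 : ((a : ℝ) * (q * a) + 1) * Real.exp x ≤ (2 : ℝ) ^ (s / 4) := by
    refine le_trans ?_ h6
    refine le_trans (le_of_eq ?_) h3
    rw [← hx15]
    ring
  have hpos : (0 : ℝ) < 2 ^ (s / 4) := by positivity
  have hL : (0 : ℝ) ≤ ((Lam a (a * (q * a))).card : ℝ) := Nat.cast_nonneg _
  have h8 : ((Bad a q).card : ℝ) * 2 ^ (s / 4) ≤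
      (Real.exp (-x) * ((Lam a (a * (q * a))).card : ℝ)) * 2 ^ (s / 4) := by
    refine h5.trans ?_
    calc ((a : ℝ) * (q * a) + 1) * ((Lam a (a * (q * a))).card : ℝ) =
        (((a : ℝ) * (q * a) + 1) * Real.exp x) *
          (Real.exp (-x) * ((Lam a (a * (q * a))).card : ℝ)) := by
          rw [Real.exp_neg]
          have := (Real.exp_pos x).ne'
          field_simp
      _ ≤ 2 ^ (s / 4) * (Real.exp (-x) * ((Lam a (a * (q * a))).card : ℝ)) := by gcongr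
      _ = _ := by ring
  exact le_of_mul_le_mul_right h8 hpos

end Vale.Agent.P181.H569
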