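import Vale.Agent.P181.LK.Spec2
import Vale.Agent.P181.GP.Main
import Vale.Agent.P181.BK.Sums
import Vale.Agent.P181.H388.LabelOne

/-!
P181: `b = q a + u`, the relation for special groups which meet every row often.
-/

set_option autoImplicit false

open scoped TensorProduct

namespace Vale.Agent.P181.H569

open Vale.Agent.P181 Vale.Agent.P181.H280 Vale.Agent.P181.H179 Vale.Agent.P181.H530
  Vale.Agent.P181.H89 Vale.Agent.P181.LK Finset

theorem star_core (hGG : RowGG) (hCLS : GP.RowCLS) {n a q s u G X N Q d w e0 A : ℕ}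
    {l' : Fin N → ℕ} (ty : Fin Q → Bool) (gz : Bool → ℕ)
    (hs : 1 ≤ s) (hq : 2 ≤ q) (hG : G < q) (hd : 18 * s ^ 5 * q ^ 2 ≤ d) (hQ1 : 1 ≤ Q)
    (hQ : ∀ z, (univ.filter (fun κ => ty κ = z)).card = q * cS (s * d) z)
    (hah : a = cS (s * d) true * gz true + cS (s * d) false * gz false)
    (hw : 1 ≤ w) (hg : ∀ κ, w ≤ gz (ty κ)) (he : q * a ≤ Q * w + e0)
    (hnum : ((a + u : ℕ) : ℝ) ^ 2 * (Q : ℝ) ^ 2 *
      (1 - 1 / (2 * (Q : ℝ) ^ 2)) ^ (A - 2 * e0) < 1)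
    (hX : s * (s + 1) * A ≤ 2 * X) (hN : N + X ≤ (s + 1) * (q * a)) (ha : 1 ≤ a)
    (ε : Fin (q * a + u) ≃ Gp a q u) (E : Equiv.Perm (Fin a × Fin (q * a + u)))
    (hE : ∀ i j, (E (i, j)).1 = Sum.elim Prod.fst (fun _ => i) (ε j))
    (l : (Fin a → Fin (q * a + u) → (Fin n → ℂ)) →₀ ℂ)
    (hx0 : arrMap a (q * a + u) E (Fin n → ℂ) (elOf l) = 0)
    (e : Box l' → Fin a) (sp : Box l' → Option (Fin u)) (gr : Fin u → Fin G)
    (hrow : ∀ i, (univ.filter (fun p => e p = i ∧ sp p = none)).card = q * a)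
    (hsp : ∀ k i, ∃ p, sp p = some k ∧ e p = i)
    (hsp1 : ∀ k p p', sp p = some k → sp p' = some k → e p = e p' → p = p')
    (hgr : ∀ k k' : Fin u, k ≠ k' → gr k = gr k' →
      ∃ t v w, sp ⟨t, v⟩ = some k ∧ sp ⟨t, w⟩ = some k')
    (hD : ∀ k i, A ≤ (univ.filter (fun t : Fin N => (∃ v, sp ⟨t, v⟩ = some k) ∧
      ∃ w, sp ⟨t, w⟩ = none ∧ e ⟨t, w⟩ = i)).card) :
    ∑ τ : Fin u → Equiv.Perm (Fin a), VV (fullForm l) l' (sprU sp τ e) = 0 := by
  classical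
  have hspr0 : ∀ (τ : Fin u → Equiv.Perm (Fin a)) p, sp p = none → sprU sp τ e p = e p := by
    intro τ p h
    simp only [sprU, h]
  by_cases hrep : ∃ t v w, v ≠ w ∧ sp ⟨t, v⟩ = none ∧ sp ⟨t, w⟩ = none ∧ e ⟨t, v⟩ = e ⟨t, w⟩
  · obtain ⟨t, v, w, h1, h2, h3, h4⟩ := hrep
    apply Finset.sum_eq_zero
    intro τ _
    apply VV_anti _ _ t h1
    rw [hspr0 τ _ h2, hspr0 τ _ h3, h4]
  have hcol0 : ∀ t v w, sp ⟨t, v⟩ = none → sp ⟨t, w⟩ = none → e ⟨t, v⟩ = e ⟨t, w⟩ → v = w := by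
    intro t v w h1 h2 h3
    by_contra h
    exact hrep ⟨t, v, w, h, h1, h2, h3⟩
  -- the rows
  let C : Fin a → Finset (Fin N) := fun i =>
    univ.filter (fun t => ∃ v, sp ⟨t, v⟩ = none ∧ e ⟨t, v⟩ = i)
  have hCm : ∀ i t, t ∈ C i ↔ ∃ v, sp ⟨t, v⟩ = none ∧ e ⟨t, v⟩ = i := by
    intro i t
    simp only [C, Finset.mem_filter, Finset.mem_univ, true_and]
  have hbij : ∀ i (P : Fin N → Prop), (univ.filter (fun p : Box l' =>
      (e p = i ∧ sp p = none) ∧ P p.1)).card = ((C i).filter P).card := by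
    intro i P
    apply Finset.card_bij (fun p _ => p.1)
    · rintro ⟨t, v⟩ hp
      rw [Finset.mem_filter] at hp
      rw [Finset.mem_filter, hCm]
      exact ⟨⟨v, hp.2.1.2, hp.2.1.1⟩, hp.2.2⟩
    · rintro ⟨t, v⟩ hp ⟨t', v'⟩ hp' h
      rw [Finset.mem_filter] at hp hp'
      simp only at h
      subst h
      rw [hcol0 t v v' hp.2.1.2 hp'.2.1.2 (hp.2.1.1.trans hp'.2.1.1.symm)]
    · intro t ht
      rw [Finset.mem_filter, hCm] at ht
      obtain ⟨⟨v, h1, h2⟩, h3⟩ := ht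
      exact ⟨⟨t, v⟩, Finset.mem_filter.2 ⟨Finset.mem_univ _, ⟨h2, h1⟩, h3⟩, rfl⟩
  have hC : ∀ i, (C i).card = q * a := by
    intro i
    have h1 := hbij i (fun _ => True)
    simp only [and_true, Finset.filter_true] at h1
    rw [← h1]
    exact hrow i
  -- the special groups
  have hgrp : ∀ k, (univ.filter (fun p : Box l' => sp p = some k)).card = a := by
    intro k
    have h1 : (univ.filter (fun p : Box l' => sp p = some k)).card =
        (univ : Finset (Fin a)).card := by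
      apply Finset.card_bij (fun p _ => e p)
      · intro p _
        exact Finset.mem_univ _
      · intro p hp p' hp' h
        exact hsp1 k p p' (Finset.mem_filter.1 hp).2 (Finset.mem_filter.1 hp').2 h
      · intro i _
        obtain ⟨p, h2, h3⟩ := hsp k i
        exact ⟨p, Finset.mem_filter.2 ⟨Finset.mem_univ _, h2⟩, h3⟩
    rw [h1, Finset.card_univ, Fintype.card_fin]
  let cg : Fin u → Finset (Fin N) := fun k =>
    (univ.filter (fun p : Box l' => sp p = some k)).image (fun p => p.1)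
  have hcgm : ∀ k t, t ∈ cg k ↔ ∃ v, sp ⟨t, v⟩ = some k := by
    intro k t
    constructor
    · intro h
      obtain ⟨⟨t', v⟩, h1, h2⟩ := Finset.mem_image.1 h
      simp only at h2
      subst h2
      exact ⟨v, (Finset.mem_filter.1 h1).2⟩
    · rintro ⟨v, hv⟩
      exact Finset.mem_image.2 ⟨⟨t, v⟩, Finset.mem_filter.2 ⟨Finset.mem_univ _, hv⟩, rfl⟩
  have hqa : a ≤ q * a := Nat.le_mul_of_pos_left a (by omega)
  have hvirt : ∀ k : Fin u, ∃ Y : Finset (Fin N), cg k ⊆ Y ∧ Y.card = q * a := by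
    intro k
    obtain ⟨Y, h1, h2⟩ := Finset.exists_superset_card_eq (s := cg k) (n := q * a)
      (le_trans Finset.card_image_le (by rw [hgrp]; exact hqa)) (by
        have h1 := Finset.card_le_univ (C ⟨0, ha⟩)
        rw [hC] at h1
        exact h1)
    exact ⟨Y, h1, h2⟩
  choose Yv hYv1 hYv2 using hvirt
  let T : Fin a → Fin u → Finset (Fin N) := fun i k => univ.filter (fun t : Fin N =>
    (∃ v, sp ⟨t, v⟩ = some k) ∧ ∃ w, sp ⟨t, w⟩ = none ∧ e ⟨t, w⟩ = i)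
  have hTm : ∀ i k t, t ∈ T i k ↔ (∃ v, sp ⟨t, v⟩ = some k) ∧
      ∃ w, sp ⟨t, w⟩ = none ∧ e ⟨t, w⟩ = i := by
    intro i k t
    simp only [T, Finset.mem_filter, Finset.mem_univ, true_and]
  let Cf : Fin (a + u) → Finset (Fin N) := Fin.addCases C Yv
  let Sf : Fin (a + u) → Fin (a + u) → Finset (Fin N) := fun i j =>
    Fin.addCases (motive := fun _ => Finset (Fin N)) (fun i' => Fin.addCases
      (motive := fun _ => Finset (Fin N)) (fun j' => C i' ∩ C j')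
      (fun k => T i' k) j) (fun _ => ∅) i
  have hsum : ∑ κ, gz (ty κ) = q * a := by
    rw [H89.sum_szS ty gz hQ, ← hah]
  obtain ⟨lab', hl1, hl2⟩ := H388.labelOne (A := A) Cf (fun κ => gz (ty κ)) Sf (by
      intro i j
      refine Fin.addCases (fun i' => ?_) (fun k => ?_) i
      · refine Fin.addCases (fun j' => ?_) (fun k => ?_) j
        · simp only [Sf, Cf, Fin.addCases_left]
          exact Finset.Subset.refl _
        · simp only [Sf, Cf, Fin.addCases_left, Fin.addCases_right]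
          intro t ht
          rw [hTm] at ht
          rw [Finset.mem_inter]
          exact ⟨(hCm i' t).2 ht.2, hYv1 k ((hcgm k t).2 ht.1)⟩
      · simp only [Sf, Fin.addCases_right]
        exact Finset.empty_subset _) hQ1 hw hg (by
      intro i
      rw [hsum]
      refine Fin.addCases (fun i' => ?_) (fun k => ?_) i
      · simp only [Cf, Fin.addCases_left]
        exact hC i'
      · simp only [Cf, Fin.addCases_right]
        exact hYv2 k) (by rw [hsum]; exact he) hnum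
  obtain ⟨lab, hlab⟩ : ∃ lab : Fin a → Fin N → Fin Q, lab = fun i => lab' (Fin.castAdd u i) :=
    ⟨_, rfl⟩
  have hsize : ∀ i κ, ((C i).filter (fun t => lab i t = κ)).card = gz (ty κ) := by
    intro i κ
    have h1 := hl1 (Fin.castAdd u i) κ
    simp only [Cf, Fin.addCases_left] at h1
    rw [hlab]
    exact h1
  have hpair : ∀ i j, i ≠ j → A ≤ (C i ∩ C j).card → ∀ κ κ',
      ∃ t ∈ C i ∩ C j, lab i t = κ ∧ lab j t = κ' := by
    intro i j hij hA κ κ'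
    have h1 := hl2 (Fin.castAdd u i) (Fin.castAdd u j) (by
      intro h
      exact hij (Fin.castAdd_injective a u h))
    simp only [Sf, Fin.addCases_left] at h1
    rw [hlab]
    exact h1 hA κ κ'
  have hwin : ∀ i k κ, ∃ t ∈ T i k, lab i t = κ := by
    intro i k κ
    have h1 := hl2 (Fin.castAdd u i) (Fin.natAdd a k) (by
      intro h
      have h2 := congrArg Fin.val h
      simp only [Fin.val_castAdd, Fin.val_natAdd] at h2
      omega)
    simp only [Sf, Fin.addCases_left, Fin.addCases_right] at h1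
    obtain ⟨t, ht, h3, _⟩ := h1 (hD k i) κ κ
    exact ⟨t, ht, by rw [hlab]; exact h3⟩
  -- the groups of the boxes
  let fm : Box l' → (Fin a × Fin Q) ⊕ Fin u := fun p =>
    match sp p with
    | none => Sum.inl (e p, lab (e p) p.1)
    | some k => Sum.inr k
  have hfr : ∀ p k, fm p = Sum.inr k ↔ sp p = some k := by
    intro p k
    rcases h : sp p with _ | k'
    · simp [fm, h]
    · simp [fm, h]
  have hfl : ∀ p i κ, fm p = Sum.inl (i, κ) ↔ (e p = i ∧ sp p = none) ∧ lab i p.1 = κ := by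
    intro p i κ
    rcases h : sp p with _ | k'
    · simp only [fm, h, Sum.inl.injEq, Prod.mk.injEq, and_true]
      constructor
      · rintro ⟨h1, h2⟩
        exact ⟨h1, by rw [← h1]; exact h2⟩
      · rintro ⟨h1, h2⟩
        exact ⟨h1, by rw [h1]; exact h2⟩
    · simp [fm, h]
  have hfn : ∀ p, sp p = none → fm p = Sum.inl (e p, lab (e p) p.1) := fun p hp =>
    (hfl p _ _).2 ⟨⟨rfl, hp⟩, rfl⟩
  -- the function of the pieces
  obtain ⟨Wf, hWf⟩ : ∃ Wf : (Fin a × Fin Q → Fin a) → ℂ, Wf = fun y =>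
      ∑ τ : Fin u → Equiv.Perm (Fin a), VV (fullForm l) l'
        (fun p => Sum.elim y (fun j => τ j (e p)) (fm p)) := ⟨_, rfl⟩
  have hWfst : Wf Prod.fst =
      ∑ τ : Fin u → Equiv.Perm (Fin a), VV (fullForm l) l' (sprU sp τ e) := by
    rw [hWf]
    apply Finset.sum_congr rfl
    intro τ _
    congr 1
    funext p
    rcases h : sp p with _ | k
    · rw [hfn p h, hspr0 τ p h]
      rfl
    · rw [(hfr p k).2 h]
      simp only [sprU, h, Sum.elim_inr]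
  rw [← hWfst]
  refine hCLS a q Q s d ty hs (by omega) hd hQ Wf ?_ ?_ ?_
  · -- symmetry
    intro τ0 y
    rw [hWf]
    simp only
    rw [← Equiv.sum_comp (Equiv.mulLeft (fun _ : Fin u => τ0))]
    apply Finset.sum_congr rfl
    intro τ _
    rw [← VV_symm (fullForm_symm l) τ0 (fun p => Sum.elim y (fun j => τ j (e p)) (fm p))]
    congr 1
    funext p
    rcases fm p with x | j
    · rfl
    · rfl
  · -- relation
    intro ρ hρ
    rw [hWf]
    simp only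
    refine hGG n a q u G N Q l' hq hG ε E hE l hx0 e fm ty (cS (s * d)) gz
      ⟨false, ?_⟩ ?_ ?_ ?_ hah ?_ gr ?_ ρ hρ
    · rw [cS, if_neg Bool.false_ne_true]
      omega
    · intro i κ
      have h1 : (univ.filter (fun p : Box l' => fm p = Sum.inl (i, κ))) =
          univ.filter (fun p : Box l' => (e p = i ∧ sp p = none) ∧ lab i p.1 = κ) := by
        ext p
        rw [Finset.mem_filter, Finset.mem_filter, hfl]
      rw [h1, ← hsize i κ]
      convert hbij i (fun t => lab i t = κ)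
    · intro k
      refine Eq.trans ?_ (hgrp k)
      congr 1
      ext p
      rw [Finset.mem_filter, Finset.mem_filter, hfr]
    · intro p p' k hp hp' h
      exact hsp1 k p p' ((hfr _ _).1 hp) ((hfr _ _).1 hp') h
    · rintro k ⟨i, κ⟩
      obtain ⟨t, ht, h1⟩ := hwin i k κ
      obtain ⟨⟨v, hv⟩, v', h2, h3⟩ := (hTm i k t).1 ht
      exact ⟨t, v, v', (hfr _ _).2 hv, (hfl _ _ _).2 ⟨⟨h3, h2⟩, h1⟩⟩
    · intro k k' hne hkk
      obtain ⟨t, v, v', h1, h2⟩ := hgr k k' hne hkk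
      exact ⟨t, v, v', (hfr _ _).2 h1, (hfr _ _).2 h2⟩
  · -- cliques
    intro y hWy m
    by_contra hno
    push Not at hno
    rw [hWf] at hWy
    simp only at hWy
    obtain ⟨τ, _, hVy⟩ := Finset.exists_ne_zero_of_sum_ne_zero hWy
    obtain ⟨S, hS1, hS2⟩ := Finset.exists_subset_card_eq (Nat.succ_le_of_lt hno)
    have h1 : 2 * X ≤ ∑ p ∈ S.offDiag, (C p.1 ∩ C p.2).card :=
      BK.sg_out_sum C ∅ (fun _ c _ => Finset.notMem_empty c) (b := q * a) hC
        (by rw [Finset.card_empty, add_zero]; exact hN) S hS2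
    have h2 : ∃ p ∈ S.offDiag, A ≤ (C p.1 ∩ C p.2).card := by
      by_contra hno2
      push Not at hno2
      have hcard : S.offDiag.card = s * (s + 1) := by
        rw [Finset.offDiag_card, hS2]
        have h4 : s.succ * s.succ = s * (s + 1) + s.succ := by
          rw [Nat.succ_eq_add_one]
          ring
        rw [h4, Nat.add_sub_cancel]
      have hne : S.offDiag.Nonempty := by
        rw [← Finset.card_pos, hcard]
        exact Nat.mul_pos hs (by omega)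
      have h3 : ∑ p ∈ S.offDiag, (C p.1 ∩ C p.2).card < ∑ _p ∈ S.offDiag, A :=
        Finset.sum_lt_sum_of_nonempty hne hno2
      rw [Finset.sum_const, smul_eq_mul, hcard] at h3
      omega
    obtain ⟨⟨i, j⟩, hp, hA⟩ := h2
    rw [Finset.mem_offDiag] at hp
    obtain ⟨hi, hj, hij⟩ := hp
    simp only at hi hj hij hA
    obtain ⟨κ, hκ⟩ := (Finset.mem_filter.1 (hS1 hi)).2
    obtain ⟨κ', hκ'⟩ := (Finset.mem_filter.1 (hS1 hj)).2
    obtain ⟨t, ht, hl3, hl4⟩ := hpair i j hij hA κ κ'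
    rw [Finset.mem_inter, hCm, hCm] at ht
    obtain ⟨⟨v, h4, h5⟩, ⟨v', h6, h7⟩⟩ := ht
    apply hVy
    refine VV_anti _ _ t (u := v) (v := v') ?_ ?_
    · intro h8
      apply hij
      rw [← h5, ← h7, h8]
    · rw [(hfl ⟨t, v⟩ i κ).2 ⟨⟨h5, h4⟩, hl3⟩, (hfl ⟨t, v'⟩ j κ').2 ⟨⟨h7, h6⟩, hl4⟩]
      simp only [Sum.elim_inl]
      rw [hκ, hκ']

/-- Numbers. -/
theorem numStar (s q a X D : ℕ) (hs : 1 ≤ s) (hq : 2 ≤ q)
    (ha : 1400 * s ^ 12 * q ^ 4 ≤ a)
    (hX : 30000 * (s : ℝ) ^ 14 * (q : ℝ) ^ 6 * Real.log a ≤ X)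
    (hD : 30000 * (s : ℝ) ^ 12 * (q : ℝ) ^ 6 * Real.log a ≤ D) :
    ∃ M : ℕ, 14000 * (s : ℝ) ^ 14 * (q : ℝ) ^ 6 * Real.log ((2 * a : ℕ) : ℝ) ≤ M ∧ M ≤ X ∧
      ∀ A : ℕ, s * (s + 1) * A ≤ 2 * M → A ≤ D := by
  have hsR : (1 : ℝ) ≤ s := by exact_mod_cast hs
  have hqR : (2 : ℝ) ≤ q := by exact_mod_cast hq
  have haR : 1400 * (s : ℝ) ^ 12 * (q : ℝ) ^ 4 ≤ a := by exact_mod_cast ha
  have hs12 : (1 : ℝ) ≤ (s : ℝ) ^ 12 := one_le_pow₀ hsR
  have hs14 : (1 : ℝ) ≤ (s : ℝ) ^ 14 := one_le_pow₀ hsR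
  have hq4 : (16 : ℝ) ≤ (q : ℝ) ^ 4 := by
    calc (16 : ℝ) = 2 ^ 4 := by norm_num
      _ ≤ _ := pow_le_pow_left₀ (by norm_num) hqR 4
  have hq6 : (64 : ℝ) ≤ (q : ℝ) ^ 6 := by
    calc (64 : ℝ) = 2 ^ 6 := by norm_num
      _ ≤ _ := pow_le_pow_left₀ (by norm_num) hqR 6
  have ha1 : (22400 : ℝ) ≤ a := by
    have h1 : (1 : ℝ) * 16 ≤ (s : ℝ) ^ 12 * (q : ℝ) ^ 4 :=
      mul_le_mul hs12 hq4 (by norm_num) (by positivity)
    nlinarith
  have ha0 : (0 : ℝ) < a := by linarith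
  obtain ⟨L, hL⟩ : ∃ L, L = Real.log a := ⟨_, rfl⟩
  have hL10 : 10 ≤ L := by
    rw [hL, Real.le_log_iff_exp_le ha0]
    have h1 : Real.exp 10 = Real.exp 1 ^ 10 := by
      rw [← Real.exp_nat_mul]
      norm_num
    rw [h1]
    have h2 : Real.exp 1 ^ 10 ≤ 2.7182818286 ^ 10 :=
      pow_le_pow_left₀ (Real.exp_pos 1).le Real.exp_one_lt_d9.le 10
    refine h2.trans (le_trans ?_ ha1)
    norm_num
  have hlog : Real.log ((2 * a : ℕ) : ℝ) ≤ 1.07 * L := by
    push_cast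
    rw [Real.log_mul (by norm_num) ha0.ne', ← hL]
    have := Real.log_two_lt_d9
    linarith
  rw [← hL] at hX hD
  have hY0 : 0 ≤ (s : ℝ) ^ 12 * (q : ℝ) ^ 6 * L := by positivity
  have hY1 : 64 * 10 ≤ (s : ℝ) ^ 12 * (q : ℝ) ^ 6 * L := by
    have h1 : (1 : ℝ) * 64 ≤ (s : ℝ) ^ 12 * (q : ℝ) ^ 6 :=
      mul_le_mul hs12 hq6 (by norm_num) (by positivity)
    nlinarith
  obtain ⟨Y, hY⟩ : ∃ Y, Y = (s : ℝ) ^ 12 * (q : ℝ) ^ 6 * L := ⟨_, rfl⟩
  rw [← hY] at hY0 hY1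
  have hlog2 : 14000 * (s : ℝ) ^ 14 * (q : ℝ) ^ 6 * Real.log ((2 * a : ℕ) : ℝ) ≤
      14980 * ((s : ℝ) ^ 2 * Y) := by
    calc 14000 * (s : ℝ) ^ 14 * (q : ℝ) ^ 6 * Real.log ((2 * a : ℕ) : ℝ) ≤
          14000 * (s : ℝ) ^ 14 * (q : ℝ) ^ 6 * (1.07 * L) :=
            mul_le_mul_of_nonneg_left hlog (by positivity)
      _ = 14980 * ((s : ℝ) ^ 2 * Y) := by
        rw [hY]
        ring
  have hs2 : (1 : ℝ) ≤ (s : ℝ) ^ 2 := one_le_pow₀ hsR
  have hXY : 30000 * ((s : ℝ) ^ 2 * Y) ≤ X := by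
    refine le_trans (le_of_eq ?_) hX
    rw [hY]
    ring
  have hDY : 30000 * Y ≤ D := by
    refine le_trans (le_of_eq ?_) hD
    rw [hY]
    ring
  have hsY : Y ≤ (s : ℝ) ^ 2 * Y := by
    calc Y = 1 * Y := (one_mul _).symm
      _ ≤ _ := mul_le_mul_of_nonneg_right hs2 hY0
  have hceil : ((⌈14980 * ((s : ℝ) ^ 2 * Y)⌉₊ : ℕ) : ℝ) < 14980 * ((s : ℝ) ^ 2 * Y) + 1 :=
    Nat.ceil_lt_add_one (by positivity)
  refine ⟨⌈14980 * ((s : ℝ) ^ 2 * Y)⌉₊, hlog2.trans (Nat.le_ceil _), ?_, ?_⟩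
  · apply Nat.ceil_le.2
    linarith
  · intro A hA
    have h1 : (s : ℝ) * (s + 1) * A ≤ 2 * ((⌈14980 * ((s : ℝ) ^ 2 * Y)⌉₊ : ℕ) : ℝ) := by
      exact_mod_cast hA
    have h2 : (s : ℝ) ^ 2 * A ≤ (s : ℝ) * (s + 1) * A := by
      apply mul_le_mul_of_nonneg_right _ (Nat.cast_nonneg _)
      nlinarith
    have h3 : (s : ℝ) ^ 2 * A ≤ (s : ℝ) ^ 2 * D := by
      have h4 : (s : ℝ) ^ 2 * (30000 * Y) ≤ (s : ℝ) ^ 2 * D :=
        mul_le_mul_of_nonneg_left hDY (by positivity)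
      nlinarith
    have h5 : (A : ℝ) ≤ D := le_of_mul_le_mul_left h3 (by positivity)
    exact_mod_cast h5

/-- Row STAR. -/
theorem rowSTAR : RowGG → GP.RowCLS → RowSTAR := by
  intro hGG hCLS n a q s u G D X N l' hs hq hu hG ha hX hD hN ε E hE l hx0 e sp gr hrow hsp hsp1
    hgr hDD
  obtain ⟨M, hM1, hM2, hM3⟩ := numStar s q a X D hs hq ha hX hD
  obtain ⟨k, hk⟩ : ∃ k, k = s * (18 * s ^ 5 * q ^ 2) := ⟨_, rfl⟩
  have hQ1 : 1 ≤ q * (2 * k + 1) := Nat.mul_pos (by omega) (by omega)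
  obtain ⟨ha2, -⟩ := GP.numG s q k a X hs (by omega) hk ha (by
    refine le_trans ?_ hX
    have h1 : (0 : ℝ) ≤ (s : ℝ) ^ 14 * (q : ℝ) ^ 6 * Real.log a :=
      mul_nonneg (by positivity) (Real.log_natCast_nonneg a)
    nlinarith)
  obtain ⟨-, A, hA1, hA2⟩ := GP.numG s q k (2 * a) M hs (by omega) hk (by omega) hM1
  obtain ⟨g, g', w, hag, hw, hg, hg', he⟩ := sizesS k q a ha2
  have ha1 : 1 ≤ a := by
    have h3 : 1 * 1 ≤ (2 * k + 1) * (2 * k + 1) := Nat.mul_le_mul (by omega) (by omega)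
    omega
  have hAD := hM3 A hA1
  subst hk
  refine star_core hGG hCLS (s := s) (d := 18 * s ^ 5 * q ^ 2) (w := w) (X := X) (A := A)
    (tyS _ q) (gS g g') hs hq hG le_rfl hQ1
    (card_tyS _ q) (by rw [cS, cS, gS, gS, if_pos rfl, if_pos rfl, if_neg Bool.false_ne_true,
      if_neg Bool.false_ne_true]; exact hag) hw (fun κ => by
      rw [gS]
      split_ifs
      · exact hg
      · exact hg') he ?_ (by omega) hN ha1 ε E hE l hx0 e sp gr hrow hsp hsp1 hgr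
      (fun k i => hAD.trans (hDD k i))
  refine lt_of_le_of_lt ?_ hA2
  apply mul_le_mul_of_nonneg_right
  · apply mul_le_mul_of_nonneg_right _ (by positivity)
    apply pow_le_pow_left₀ (by positivity)
    exact_mod_cast (by omega : a + u ≤ 2 * a)
  · apply pow_nonneg
    have h1 : (1 : ℝ) ≤ ((q * (2 * (s * (18 * s ^ 5 * q ^ 2)) + 1) : ℕ) : ℝ) := by
      exact_mod_cast hQ1
    have h2 : 1 / (2 * ((q * (2 * (s * (18 * s ^ 5 * q ^ 2)) + 1) : ℕ) : ℝ) ^ 2) ≤ 1 := by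
      rw [div_le_one (by positivity)]
      have : (1 : ℝ) ≤ ((q * (2 * (s * (18 * s ^ 5 * q ^ 2)) + 1) : ℕ) : ℝ) ^ 2 := one_le_pow₀ h1
      linarith
    linarith

end Vale.Agent.P181.H569
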