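import Mathlib
import Vale.Agent.P181.H676.Tail

set_option autoImplicit false

namespace Vale.Agent.P181.H569

open Finset

/-- The compositions of `N` in `a` parts. -/
noncomputable def Cmp (a N : ℕ) : Finset (Fin a → ℕ) := Finset.piAntidiag Finset.univ N

theorem mem_Cmp {a N : ℕ} {f : Fin a → ℕ} : f ∈ Cmp a N ↔ ∑ i, f i = N := by
  rw [Cmp, Finset.mem_piAntidiag]
  simp

theorem card_Cmp {a N : ℕ} (ha : 1 ≤ a) : (Cmp a N).card = (N + a - 1).choose (a - 1) := by
  have h1 : (Cmp a N).card = ((Finset.univ : Finset (Fin a)).finsuppAntidiag N).card := by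
    rw [Finset.finsuppAntidiag, Finset.card_map, Finset.card_attach, Cmp]
  rw [h1, Finset.card_finsuppAntidiag_nat_eq_choose, Finset.card_univ, Fintype.card_fin]
  have h2 : a + N - 1 = N + (a - 1) := by omega
  have h3 : N + a - 1 = N + (a - 1) := by omega
  rw [h2, h3]
  exact Nat.choose_symm_add

theorem lamL (a N : ℕ) (ha : 1 ≤ a) :
    (N + a - 1).choose (a - 1) ≤ a.factorial * (H676.Lam a N).card := by
  classical
  rw [← card_Cmp ha]
  have h1 : Cmp a N ⊆ ((Finset.univ : Finset (Equiv.Perm (Fin a))) ×ˢ H676.Lam a N).image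
      (fun p => p.2 ∘ p.1) := by
    intro f hf
    rw [mem_Cmp] at hf
    rw [Finset.mem_image]
    let σ := Tuple.sort (fun i => OrderDual.toDual (f i))
    have hσ : Antitone (f ∘ σ) := by
      have := Tuple.monotone_sort (fun i => OrderDual.toDual (f i))
      intro i j hij
      exact this hij
    refine ⟨(σ⁻¹, f ∘ σ), Finset.mem_product.2 ⟨Finset.mem_univ _, H676.mem_Lam.2 ⟨hσ, ?_⟩⟩, ?_⟩
    · rw [← hf]
      exact Equiv.sum_comp σ f
    · funext i
      simp [Function.comp]
  refine (Finset.card_le_card h1).trans (Finset.card_image_le.trans ?_)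
  rw [Finset.card_product, Finset.card_univ, Fintype.card_perm, Fintype.card_fin]

/-- The staircase. -/
theorem sum_stair (r : ℕ) : ∑ i : Fin r, (r - 1 - (i : ℕ)) = r * (r - 1) / 2 := by
  rw [Fin.sum_univ_eq_sum_range (fun i => r - 1 - i) r, Finset.sum_range_reflect (fun i => i) r,
    Finset.sum_range_id]

theorem lamU (r N : ℕ) (hr : 1 ≤ r) :
    r.factorial * (H676.Lam r N).card ≤ (N + r * (r - 1) / 2 + r - 1).choose (r - 1) := by
  classical
  rw [← card_Cmp hr]
  have h0 : r.factorial * (H676.Lam r N).card =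
      ((Finset.univ : Finset (Equiv.Perm (Fin r))) ×ˢ H676.Lam r N).card := by
    rw [Finset.card_product, Finset.card_univ, Fintype.card_perm, Fintype.card_fin]
  rw [h0]
  have hanti : ∀ g ∈ H676.Lam r N, StrictAnti (fun i : Fin r => g i + (r - 1 - (i : ℕ))) := by
    intro g hg i j hij
    have h1 := (H676.mem_Lam.1 hg).1 hij.le
    have h2 : (i : ℕ) < j := hij
    have h3 := j.2
    simp only
    omega
  apply Finset.card_le_card_of_injOn
    (fun p => (fun i : Fin r => p.2 i + (r - 1 - (i : ℕ))) ∘ p.1)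
  · rintro ⟨σ, g⟩ hg
    have hg' := (Finset.mem_product.1 (Finset.mem_coe.1 hg)).2
    rw [Finset.mem_coe, mem_Cmp]
    simp only
    have h1 := Equiv.sum_comp σ (fun i : Fin r => g i + (r - 1 - (i : ℕ)))
    refine Eq.trans h1 ?_
    rw [Finset.sum_add_distrib, sum_stair, (H676.mem_Lam.1 hg').2]
  · rintro ⟨σ, g⟩ hg ⟨σ', g'⟩ hg' h
    have hg1 := hanti g (Finset.mem_product.1 (Finset.mem_coe.1 hg)).2
    have hg2 := hanti g' (Finset.mem_product.1 (Finset.mem_coe.1 hg')).2
    simp only at h
    -- `G ∘ σ = G' ∘ σ'`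
    obtain ⟨G, hG⟩ : ∃ G, G = fun i : Fin r => g i + (r - 1 - (i : ℕ)) := ⟨_, rfl⟩
    obtain ⟨G', hG'⟩ : ∃ G', G' = fun i : Fin r => g' i + (r - 1 - (i : ℕ)) := ⟨_, rfl⟩
    rw [← hG, ← hG'] at h
    rw [← hG] at hg1
    rw [← hG'] at hg2
    have hτ : ∀ i, G ((σ * σ'⁻¹) i) = G' i := by
      intro i
      have := congrFun h (σ'⁻¹ i)
      simpa [Function.comp] using this
    have hmono : StrictMono (σ * σ'⁻¹) := by
      intro i j hij
      have h1 := hg2 hij
      rw [← hτ i, ← hτ j] at h1
      exact hg1.lt_iff_gt.1 h1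
    have hone : σ * σ'⁻¹ = 1 := by
      obtain ⟨τ, hτe⟩ : ∃ τ : Equiv.Perm (Fin r), τ = σ * σ'⁻¹ := ⟨_, rfl⟩
      rw [← hτe] at hmono ⊢
      have h4 : StrictMono τ.symm := by
        intro i j hij
        by_contra hno
        push Not at hno
        have h5 := hmono.monotone hno
        rw [Equiv.apply_symm_apply, Equiv.apply_symm_apply] at h5
        exact absurd hij (not_lt.2 h5)
      ext i
      have h6 : i ≤ τ i := StrictMono.id_le hmono i
      have h7 : τ i ≤ τ.symm (τ i) := StrictMono.id_le h4 (τ i)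
      rw [Equiv.symm_apply_apply] at h7
      rw [le_antisymm h7 h6]
      rfl
    have hσ : σ = σ' := mul_inv_eq_one.1 hone
    subst hσ
    have hGG : G = G' := by
      funext i
      have := hτ i
      rw [hone] at this
      exact this
    have hgg : g = g' := by
      funext i
      have h1 := congrFun hGG i
      rw [hG, hG'] at h1
      simp only at h1
      omega
    rw [hgg]

end Vale.Agent.P181.H569
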